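import Vale.Agent.Lib.P154.SN.Prog

/-! Generated certificates. -/

namespace Vale.Agent.Lib.P154

namespace SN

open Tr in
theorem tc103 : chk TK5f gsf (s1 (s2 (s1 l (s0 l l)) (s1 (s0 l l) (s0 l (s1 l l)))) (s0 (d 0) (s1 (s2 l (s1 (s0 (d 0) l) (d 0))) (d 0))))
    (Bx.mk 281475127705600 16777216 281475144482816 33554432 281475065077760 21258240 281474976710656 0) = true := by
  decide +kernel

open Tr in
theorem tc104 : chk TK5f gsf (s2 (s0 (s1 l l) (s1 (s0 l l) (s0 l l))) (s0 (s1 (s0 l l) (s0 (s2 l l) (s1 l (s2 l l)))) (s1 (s0 (s2 l l) (s0 l l)) (s0 (s2 l (s1 l l)) (s1 (s2 l l) (s0 l l))))))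
    (Bx.mk 281475161260032 16777216 281475127705600 16777216 281475065077760 21258240 281474976710656 0) = true := by
  decide +kernel

open Tr in
theorem tc105 : chk TK5f gsf (s2 (s0 (s1 (s0 l l) (s1 (s0 (d 0) l) (d 0))) (s1 (s0 (s1 l l) (s1 l l)) (s1 (s0 l (s2 l l)) (s0 (d 1) (s0 (d 1) l))))) (s0 (s1 (s1 (s2 l (s0 l l)) (s0 (s0 (d 0) l) (s2 l (s2 l l)))) (s1 (s0 (d 0) (s1 (s0 (d 0) l) (d 0))) (d 0))) (s1 (s0 (s1 (s0 l (s2 l l)) (s2 l (s0 l l))) (s1 (s2 l (s0 l l)) (s0 (s1 l (s2 l l)) (s2 l (s1 l l))))) (s1 (s0 (s2 (s2 l l) (s1 (s0 l l) (s0 (d 1) l))) (s0 (s2 l (s1 l l)) (s2 l (s1 l (s2 l l))))) (s0 (d 1) (s1 (s0 (d 1) (s1 (s0 (d 1) l) (d 1))) (d 1)))))))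
    (Bx.mk 281475161260032 16777216 281475161260032 16777216 281475065077760 21258240 281474976710656 0) = true := by
  decide +kernel

open Tr in
theorem tc106 : chk TK5f gsf (d 1)
    (Bx.mk 281475144482816 33554432 281475211591680 33554432 281475065077760 21258240 281474976710656 0) = true := by
  decide +kernel

open Tr in
theorem tc107 : chk TK5f gsf (s2 (s0 (s1 (s0 l (s1 l l)) (s0 (s1 l l) (s1 l l))) (s0 (s1 (s1 l l) (s1 (s2 l l) (s0 l l))) (s1 (s1 l (s0 l l)) (s1 (s0 l l) (s0 l l))))) (s0 (s0 (s1 (s2 l (s1 l l)) (s1 (s0 l l) (s2 l (s0 l l)))) (s1 (s0 (s1 l l) (s1 l l)) (s1 (s0 l l) (s0 (s2 l l) (s2 l l))))) (s0 (s1 (s1 (s0 l l) (s0 l l)) (s1 (s0 l l) (s0 (s1 l l) (s1 l l)))) (s1 (s1 (s0 l l) (s0 l l)) (s1 (s0 (s2 l l) (s2 l l)) (s0 (s1 l l) (s1 l l)))))))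
    (Bx.mk 281475194814464 16777216 281475127705600 16777216 281475065077760 21258240 281474976710656 0) = true := by
  decide +kernel

open Tr in
theorem tc108 : chk TK5f gsf (s0 (s1 (s0 (s1 l (s2 l l)) (s1 (s0 l l) (s0 l l))) (s0 (s1 (s0 l l) (s1 (s2 l l) (d 1))) (s1 (s0 (s2 l l) (s1 l l)) (s0 (s1 l l) (s1 l l))))) (s0 (s1 (s1 (s0 l l) (s0 l (s1 l l))) (s1 (s0 (s1 l l) (s1 l l)) (s0 (s1 l l) (s1 l (s2 l l))))) (s1 (s1 (s0 l (s1 l l)) (s0 (s1 l l) (s1 l l))) (s1 (s0 (s1 l l) (s1 l l)) (s0 (s1 (s2 l l) (s0 l l)) (s1 (s0 l l) (s0 l l)))))))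
    (Bx.mk 281475194814464 16777216 281475161260032 16777216 281475054448640 10629120 281474976710656 0) = true := by
  decide +kernel

end SN

end Vale.Agent.Lib.P154
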