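import Vale.Agent.Lib.P154.SN.Prog

/-! Generated certificates. -/

namespace Vale.Agent.Lib.P154

namespace SN

open Tr in
theorem tc109 : chk TK5f gsf (s0 (s1 (s0 (s1 l l) (s1 l l)) (s0 (s2 l (s1 l l)) (s2 l (s1 l l)))) (s1 (s0 (s1 l (s2 l l)) (s1 l (s2 l l))) (s0 (s2 l (s1 l (s2 l l))) (s1 (s2 l l) (s0 l l)))))
    (Bx.mk 281475186425856 8388608 281475152871424 8388608 281475075706880 10629120 281474976710656 0) = true := by
  decide +kernel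

open Tr in
theorem tc110 : chk TK5f gsf (s0 (s1 (s0 (s1 (s2 l (s2 l l)) (s2 l (s0 l l))) (s1 (s2 l (s2 l l)) (s2 l (s0 l l)))) (s1 (s0 (s2 l (s0 l (s2 l l))) (s2 l (s2 l (s0 l l)))) (d 1))) (s1 (s0 (s1 (s2 l (s0 l l)) (s2 l (s0 l l))) (s1 (s2 l (s0 l l)) (s2 l (s0 l l)))) (s0 (s1 (s2 l (s0 (s1 l l) (s1 l l))) (s1 (s2 l (s0 l l)) (d 1))) (s1 (s2 l (s0 (s1 l l) (s1 l l))) (s0 (s2 l (s1 l l)) (s2 l (s1 l l)))))))
    (Bx.mk 281475186425856 8388608 281475169648640 8388608 281475075706880 10629120 281474976710656 0) = true := by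
  decide +kernel

open Tr in
theorem tc111 : chk TK5f gsf (s0 (s1 (s0 (s1 l (s2 l l)) (s1 l l)) (s0 (s1 (s2 l l) (s0 l l)) (s1 (s2 l l) (s0 l l)))) (s1 (s0 (s1 l l) (s1 l l)) (s0 (s1 (s2 l l) (s0 l l)) (s1 (s0 l l) (s0 l l)))))
    (Bx.mk 281475203203072 8388608 281475152871424 8388608 281475075706880 10629120 281474976710656 0) = true := by
  decide +kernel

open Tr in
theorem tc112 : chk TK5f gsf (s0 (s1 (s0 (s1 (s0 (s2 l l) l) (s2 l (s0 l l))) (s1 (s0 l l) (s2 l (s0 l l)))) (s0 (s1 (s0 (s1 l (s2 l l)) (s1 l l)) (s0 (s2 l (s1 l l)) (s2 l (s1 l l)))) (s1 (s0 (s1 l l) (s1 l l)) (s0 (s2 l (s1 l l)) (s1 l (s2 l l)))))) (s1 (s0 (s1 (s0 l l) (s0 (s2 l l) (s2 l l))) (s1 (s0 l l) (s0 l l))) (s0 (s1 (s0 (s1 l l) (s1 l l)) (s0 (s1 l l) (s1 l l))) (s1 (s0 (s1 l l) (s1 l l)) (s0 (s1 l l) (s1 l l))))))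
    (Bx.mk 281475203203072 8388608 281475169648640 8388608 281475075706880 10629120 281474976710656 0) = true := by
  decide +kernel

open Tr in
theorem tc113 : chk TK5f gsf (s0 (s1 (s1 (s0 l l) (s0 l l)) (s1 (s0 l (s1 l l)) (s0 (s1 l l) (s1 l l)))) (s1 (s1 (s0 l l) (s0 l (s1 l l))) (s1 (s0 (s1 l l) (s1 l l)) (s0 (s1 l l) (s1 l (s0 l l))))))
    (Bx.mk 281475219980288 8388608 281475127705600 16777216 281475054448640 10629120 281474976710656 0) = true := by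
  decide +kernel

open Tr in
theorem tc114 : chk TK5f gsf (s0 (s1 (s1 (s0 l (s1 l l)) (s0 (s1 l l) (s1 l l))) (s1 (s0 (s1 l (s0 l l)) (s1 (s0 l l) (s0 l l))) (s0 (s1 (s0 l l) (s0 l l)) (s1 (s0 l l) (s0 l l))))) (s1 (s0 (s1 (s1 l l) (s1 l (s0 l l))) (s1 (s1 l l) (s1 l (s0 l l)))) (s1 (s0 (s1 (s0 l l) (s0 l l)) (s1 (s0 l l) (s0 l l))) (s0 (s1 (s0 l l) (s0 (s1 l l) (s1 l l))) (s1 (s0 (s1 l l) (s1 l l)) (s0 (s1 l l) (s1 l l)))))))
    (Bx.mk 281475236757504 8388608 281475127705600 16777216 281475054448640 10629120 281474976710656 0) = true := by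
  decide +kernel

end SN

end Vale.Agent.Lib.P154
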