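import Vale.Agent.Lib.P154.SN.Prog

/-! Generated certificates. -/

namespace Vale.Agent.Lib.P154

namespace SN

open Tr in
theorem tc133 : chk TK5f gsf (s0 (s1 (s0 (s1 l l) (s1 l (s0 l l))) (s0 (s1 (s0 l l) (s0 l l)) (s1 (s0 l l) (s0 l l)))) (s1 (s0 (s1 (s0 l l) (s0 l l)) (s1 (s0 l l) (s0 l l))) (s0 (s1 (s0 l l) (s0 l l)) (s1 (s0 l l) (s0 l l)))))
    (Bx.mk 281475240951808 4194304 281475182231552 4194304 281475075706880 10629120 281474976710656 0) = true := by
  decide +kernel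

open Tr in
theorem tc134 : chk TK5f gsf (s0 (s1 (s0 (s1 (s0 l l) (s0 l l)) (s1 (s0 l l) (s0 l l))) (s0 (s1 (s0 l l) (s0 l l)) (s1 (s0 l l) (s0 l l)))) (s1 (s0 (s1 (s0 l l) (s0 l l)) (s1 (s0 l l) (s0 l l))) (s0 (s1 (s0 l l) (s0 l l)) (s1 (s0 l l) (s0 l l)))))
    (Bx.mk 281475240951808 4194304 281475190620160 4194304 281475075706880 10629120 281474976710656 0) = true := by
  decide +kernel

open Tr in
theorem tc135 : chk TK5f gsf (s0 (d 1) (s1 (s1 (s0 (s1 (s0 (s0 (d 1) l) (s0 l l)) (d 1)) (s0 (s1 (s0 l l) (s0 (d 1) (s1 l (d 1)))) (s1 (s0 l l) (s1 (s0 l l) (d 1))))) (d 1)) (d 1)))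
    (Bx.mk 281475236757504 8388608 281475203203072 8388608 281475075706880 10629120 281474976710656 0) = true := by
  decide +kernel

open Tr in
theorem tc136 : chk TK5f gsf (d 1)
    (Bx.mk 281475211591680 33554432 281475228368896 16777216 281475065077760 21258240 281474976710656 0) = true := by
  decide +kernel

end SN

end Vale.Agent.Lib.P154
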