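import Vale.Agent.Lib.P154.SN.Prog

/-! Generated certificates. -/

namespace Vale.Agent.Lib.P154

namespace SN

open Tr in
theorem tc145 : chk TKBu gsA (s0 (s1 (s0 (s1 (s0 l l) (s0 l l)) (s1 (s0 l l) (s0 l l))) (s0 (s1 (s0 l l) (s0 l l)) (s1 (s0 l l) (s0 l l)))) (s1 (s0 (s1 (s0 l l) (s0 l l)) (s1 (s0 l l) (s0 l l))) (s0 (s1 (s0 l l) (s0 l l)) (s1 (s0 l l) (s0 l l)))))
    (Bx.mk 281474982477824 5767168 281475114074112 3145728 281474976710656 0 281474976710656 0) = true := by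
  decide +kernel

open Tr in
theorem tc146 : chk TKBu gsA (s0 (s1 (s0 (s1 (s0 l l) (s0 l l)) (s1 (s0 l l) (s0 l l))) (s0 (s1 (s0 l l) (s0 l l)) (s1 (s0 l l) (s0 l l)))) (s1 (s0 (s1 (s0 l l) (s0 l l)) (s1 (s0 l l) (s0 l l))) (s0 (s1 (s0 l l) (s0 l l)) (s1 (s0 l l) (s0 l l)))))
    (Bx.mk 281474982477824 5767168 281475120365568 3145728 281474976710656 0 281474976710656 0) = true := by
  decide +kernel

open Tr in
theorem tc147 : chk TKBu gsA (s0 (s1 (s0 (s1 (s0 l l) (s0 l l)) (s1 (s0 l (s1 l l)) (s0 l l))) (s0 (s1 (s0 l l) (s0 l l)) (s1 (s0 l l) (s0 l l)))) (s1 (s0 (s1 (s0 (s1 l l) (s1 l l)) (s0 l (s1 l l))) (s1 (s0 (s1 l l) (s1 l l)) (s0 l l))) (s0 (s1 (s0 l l) (s0 l l)) (s1 (s0 l l) (s0 l l)))))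
    (Bx.mk 281474994012160 5767168 281475114074112 3145728 281474976710656 0 281474976710656 0) = true := by
  decide +kernel

open Tr in
theorem tc148 : chk TKBu gsA (s0 (s1 (s0 (s1 (s0 l l) (s0 l l)) (s1 (s0 l l) (s0 l l))) (s0 (s1 (s0 l l) (s0 l l)) (s1 (s0 l l) (s0 l l)))) (s1 (s0 (s1 (s0 l l) (s0 l l)) (s1 (s0 l l) (s0 l l))) (s0 (s1 (s0 l l) (s0 l l)) (s1 (s0 l l) (s0 l l)))))
    (Bx.mk 281474994012160 5767168 281475120365568 3145728 281474976710656 0 281474976710656 0) = true := by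
  decide +kernel

open Tr in
theorem tc149 : chk TKBu gsA (s0 (s1 (s0 (s1 (s0 l l) (s0 l l)) (s1 (s0 l l) (s0 l l))) (s0 (s1 (s0 l l) (s0 l l)) (s1 (s0 l l) (s0 l l)))) (s1 (s0 (s1 (s0 l l) (s0 l l)) (s1 (s0 l l) (s0 l l))) (s0 (s1 (s0 l l) (s0 l l)) (s1 (s0 l l) (s0 l l)))))
    (Bx.mk 281474982477824 5767168 281475126657024 3145728 281474976710656 0 281474976710656 0) = true := by
  decide +kernel

open Tr in
theorem tc150 : chk TKBu gsA (s0 (s1 (s0 (s1 (s0 l l) (s0 l l)) (s1 (s0 l l) (s0 l l))) (s0 (s1 (s0 l l) (s0 l l)) (s1 (s0 l l) (s0 l l)))) (s1 (s0 (s1 (s0 l l) (s0 l l)) (s1 (s0 l l) (s0 l l))) (s0 (s1 (s0 l l) (s0 l l)) (s1 (s0 l l) (s0 l l)))))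
    (Bx.mk 281474982477824 5767168 281475132948480 3145728 281474976710656 0 281474976710656 0) = true := by
  decide +kernel

end SN

end Vale.Agent.Lib.P154
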