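import Vale.Agent.Lib.P154.SN.Prog

/-! Generated certificates. -/

namespace Vale.Agent.Lib.P154

namespace SN

open Tr in
theorem tc157 : chk TKBu gsA (s0 (s1 (s0 (s1 (s0 l l) (s0 l l)) (s1 (s0 l l) (s0 l l))) (s0 (s1 (s0 l l) (s0 l l)) (s1 (s0 l l) (s0 l l)))) (s1 (s0 (s1 (s0 l (s1 l l)) (s0 l (s1 l l))) (d 1)) (s0 (s1 (s0 l (s1 l l)) (s0 l l)) (d 1))))
    (Bx.mk 281475017080832 5767168 281475120365568 3145728 281474976710656 0 281474976710656 0) = true := by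
  decide +kernel

open Tr in
theorem tc158 : chk TKBu gsA (s0 (s1 (s0 (s1 (s0 l l) (s0 l l)) (s1 (s0 l l) (s0 l l))) (s0 (s1 (s0 l l) (s0 l l)) (s1 (s0 l l) (s0 l l)))) (s1 (s0 (s1 (s0 l l) (s0 l l)) (s1 (s0 l l) (s0 l l))) (s0 (s1 (s0 l l) (s0 l l)) (s1 (s0 l l) (s0 l l)))))
    (Bx.mk 281475005546496 5767168 281475126657024 3145728 281474976710656 0 281474976710656 0) = true := by
  decide +kernel

open Tr in
theorem tc159 : chk TKBu gsA (s0 (s1 (s0 (s1 (s0 l l) (s0 l l)) (s1 (s0 l l) (s0 l l))) (s0 (s1 (s0 l l) (s0 l l)) (s1 (s0 l l) (s0 l l)))) (s1 (s0 (s1 (s0 l l) (s0 l l)) (s1 (s0 l l) (s0 l l))) (s0 (s1 (s0 l l) (s0 l l)) (s1 (s0 l l) (s0 l (d 0))))))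
    (Bx.mk 281475005546496 5767168 281475132948480 3145728 281474976710656 0 281474976710656 0) = true := by
  decide +kernel

open Tr in
theorem tc160 : chk TKBu gsA (s1 (s0 (s1 (s0 (s1 (s0 l l) (s0 l l)) (s1 (s0 l l) (s0 l l))) (s0 (s1 (s0 l l) (s0 l l)) (s1 (s0 l (d 0)) (d 0)))) (s1 (s0 (s1 (s0 l (d 0)) (d 0)) (d 0)) (d 0))) (s0 (s1 (s0 (s1 (s0 l (d 0)) (d 0)) (d 0)) (d 0)) (d 0)))
    (Bx.mk 281475017080832 5767168 281475129802752 6291456 281474976710656 0 281474976710656 0) = true := by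
  decide +kernel

open Tr in
theorem tc161 : chk TKBu gsA (s1 (s0 (s1 (s0 (s1 (s0 l l) (s0 l l)) (s1 (s0 l l) (s0 l l))) (s0 (s1 l l) (s1 (s0 l l) (s0 l l)))) (s1 (s0 (s1 (s0 l l) (s0 l l)) (s1 (s0 l l) (s0 l l))) (s0 (s1 (s0 l l) (s0 l l)) (s1 (s0 l l) (s0 l l))))) (s0 (s1 (s0 (s1 l l) (s1 (s0 l l) (s0 l l))) (s0 (s1 l l) (s1 (s0 l l) (s0 l l)))) (s1 (s0 (s1 (s0 l l) (s0 l l)) (s1 (s0 l l) (s0 l l))) (s0 (s1 (s0 l l) (s0 l l)) (s1 (s0 l l) (s0 l l))))))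
    (Bx.mk 281474982477824 5767168 281475142385664 6291456 281474976710656 0 281474976710656 0) = true := by
  decide +kernel

open Tr in
theorem tc162 : chk TKBu gsA (s0 (s1 (s0 (s1 (s0 l l) (s0 l l)) (s1 (s0 l l) (s0 l l))) (s0 (s1 (s0 l l) (s0 l l)) (s1 (s0 l l) (s0 l l)))) (s1 (s0 (s1 (s0 l l) (s0 l l)) (s1 (s0 l l) (s0 l l))) (s0 (s1 (s0 l l) (s0 l l)) (s1 (s0 l l) (s0 l l)))))
    (Bx.mk 281474994012160 5767168 281475139239936 3145728 281474976710656 0 281474976710656 0) = true := by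
  decide +kernel

end SN

end Vale.Agent.Lib.P154
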