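import Vale.Agent.Lib.P154.SN.Prog

/-! Generated certificates. -/

namespace Vale.Agent.Lib.P154

namespace SN

open Tr in
theorem tc163 : chk TKBu gsA (s0 (s1 (s0 (s1 (s0 l l) (s0 l l)) (s1 (s0 l l) (s0 l l))) (s0 (s1 (s0 l l) (s0 l l)) (s1 (s0 l l) (s0 l l)))) (s1 (s0 (s1 (s0 l l) (s0 l l)) (s1 (s0 l l) (s0 l l))) (s0 (s1 (s0 l l) (s0 l l)) (s1 (s0 l l) (s0 l l)))))
    (Bx.mk 281474994012160 5767168 281475145531392 3145728 281474976710656 0 281474976710656 0) = true := by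
  decide +kernel

open Tr in
theorem tc164 : chk TKBu gsA (s1 (s0 (s1 (s0 l (s1 (s0 l l) l)) (s0 l (s1 l l))) (s1 (s0 (s1 (s0 l l) (s0 l l)) (s1 (s0 l l) (s0 l l))) (s0 (s1 (s0 l l) (s0 l l)) (s1 (s0 l l) (s0 l l))))) (s0 (s1 (s0 l (s1 l l)) (s0 l (s1 l l))) (s1 (s0 (s1 (s0 l l) (s0 l l)) (s1 (s0 l l) (s0 l l))) (s0 (s1 l l) (s1 (s0 l l) (s0 l l))))))
    (Bx.mk 281474982477824 5767168 281475154968576 6291456 281474976710656 0 281474976710656 0) = true := by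
  decide +kernel

open Tr in
theorem tc165 : chk TKBu gsA (s0 (s1 (s0 (s1 (s0 l l) (s0 l l)) (s1 (s0 l l) (s0 l l))) (s0 (s1 (s0 l l) (s0 l l)) (s1 (s0 l l) (s0 l l)))) (s1 (s0 (s1 (s0 l l) (s0 l l)) (s1 (s0 l l) (s0 l l))) (s0 (s1 (s0 l l) (s0 l l)) (s1 (s0 l l) (s0 l l)))))
    (Bx.mk 281474994012160 5767168 281475151822848 3145728 281474976710656 0 281474976710656 0) = true := by
  decide +kernel

open Tr in
theorem tc166 : chk TKBu gsA (s0 (s1 (s0 (s1 (s0 l l) (s0 l l)) (s1 (s0 l l) (s0 l l))) (s0 (s1 (s0 l l) (s0 l l)) (s1 (s0 l l) (s0 l l)))) (s1 (s0 (s1 (s0 l l) (s0 l l)) (s1 (s0 l l) (s0 l l))) (s0 (s1 (s0 l l) (s0 l l)) (s1 (s0 l l) (s0 l l)))))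
    (Bx.mk 281474994012160 5767168 281475158114304 3145728 281474976710656 0 281474976710656 0) = true := by
  decide +kernel

open Tr in
theorem tc167 : chk TKBu gsA (s0 (s1 (s0 (s1 (s0 (s1 (s0 l l) (s0 l l)) (s1 (s0 l l) (s0 l l))) (s0 (s1 (s0 l l) (s0 l l)) (s1 (s0 l l) (s0 l l)))) (s1 (s0 (s1 (s0 l l) (s0 l l)) (s1 (s0 l (d 0)) (d 0))) (s0 (s1 (s0 l l) (s0 l (d 0))) (d 0)))) (s0 (s1 (s0 (s1 (s0 l l) (s0 l l)) (s1 (s0 l l) (s0 l l))) (s0 (s1 (s0 l l) (s0 l l)) (s1 (s0 l l) (s0 l l)))) (s1 (s0 (s1 (s0 l (d 0)) (d 0)) (d 0)) (d 0)))) (s1 (d 0) (d 0)))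
    (Bx.mk 281475011313664 11534336 281475142385664 6291456 281474976710656 0 281474976710656 0) = true := by
  decide +kernel

open Tr in
theorem tc168 : chk TKBu gsA (s0 (s1 (s0 (s1 (s0 (s1 (s0 l l) (s0 l l)) (s1 (s0 l (d 0)) (s0 l (d 0)))) (s0 (s1 (s0 l l) (s0 l l)) (s1 (s0 l (d 0)) (s0 (d 0) (d 0))))) (d 0)) (s0 (s1 (s0 (s1 (s0 l l) (s0 l l)) (d 0)) (s0 (s1 (s0 l l) (s0 l (d 0))) (d 0))) (d 0))) (d 0))
    (Bx.mk 281475011313664 11534336 281475154968576 6291456 281474976710656 0 281474976710656 0) = true := by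
  decide +kernel

end SN

end Vale.Agent.Lib.P154
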