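import Vale.Agent.Lib.P154.SN.Prog

/-! Generated certificates. -/

namespace Vale.Agent.Lib.P154

namespace SN

open Tr in
theorem tc15 : chk TK4f gsf (s1 (s1 l (s0 l (s2 l l))) (s1 (s1 (s1 (s0 (d 0) (s0 (d 0) l)) (d 0)) (d 0)) (d 0)))
    (Bx.mk 281475043819520 67108864 281475110928384 134217728 281475010265088 33554432 281474976710656 0) = true := by
  decide +kernel

open Tr in
theorem tc16 : chk TK4f gsf (s0 (s1 l (s1 (s2 l l) (s2 l (s0 l l)))) (s1 (s0 l (s1 l l)) (s0 (s1 (s2 l l) (s2 l (s1 l l))) (s1 (s2 l l) (s2 (s1 l l) (s1 l (s0 l l)))))))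
    (Bx.mk 281475144482816 33554432 281475043819520 67108864 281475010265088 33554432 281474976710656 0) = true := by
  decide +kernel

open Tr in
theorem tc17 : chk TK4f gsf (s0 (s1 (s1 l (s2 l l)) (s1 (s0 (s2 l l) (s2 l l)) (s0 (s1 (s2 l l) (s2 l l)) (s1 (s2 l l) (s2 l (s2 l l)))))) (s1 (s1 l (s1 l l)) (s1 (s0 (s1 l l) (s1 l l)) (s0 (s1 (s2 l l) (s1 l (s2 l l))) (s1 (s2 l l) (s1 l (s2 l l)))))))
    (Bx.mk 281475194814464 16777216 281475043819520 67108864 281475010265088 33554432 281474976710656 0) = true := by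
  decide +kernel

open Tr in
theorem tc18 : chk TK4f gsf (s0 (s1 (s0 (s1 l l) (s1 l l)) (s1 (s0 (s1 l l) (s1 l l)) (s0 (s1 (s1 l l) (s1 l (s0 l l))) (s1 (s1 l l) (s1 (s2 l l) (s0 l l)))))) (s0 (s1 (s1 l l) (s1 (s1 l l) (s1 (s1 l l) (s1 (s0 l l) (s0 l l))))) (s1 (s1 l l) (s1 (s1 l (s2 l l)) (s1 (s0 l l) (s0 (s1 l l) (s1 l l)))))))
    (Bx.mk 281475228368896 16777216 281475043819520 67108864 281475010265088 33554432 281474976710656 0) = true := by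
  decide +kernel

open Tr in
theorem tc19 : chk TK4f gsf (s1 (s1 (s0 (s2 (s0 l l) (s1 (s0 l l) (s0 l l))) (s0 (s1 (s2 l l) (s2 l (s0 l l))) (s1 (s2 l (s0 l (s2 l l))) (s2 (s0 l l) (s0 (s1 l l) (s1 l l)))))) (s0 (s1 (s1 (s0 (d 0) (s2 l l)) (d 0)) (d 0)) (s1 (s0 (s2 (s2 l l) (s1 (s0 l l) (s0 l l))) (s0 (s2 l (s1 l (s0 l l))) (s2 (s1 l l) (s1 (s0 l l) (s0 l (s2 l l)))))) (s0 (s1 (s0 (d 0) (s1 (s2 l l) (d 0))) (d 0)) (s1 (s0 (s2 l (s2 l (s0 l l))) (s2 l (s2 l (s0 (s2 l l) (s1 l l))))) (s0 (d 1) (s1 (s0 (d 1) (s2 l (s0 (d 1) l))) (d 1)))))))) (d 1))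
    (Bx.mk 281475144482816 33554432 281475178037248 67108864 281475010265088 33554432 281474976710656 0) = true := by
  decide +kernel

open Tr in
theorem tc20 : chk TK4f gsf (s1 (s0 (s2 l (s1 l l)) (s2 l (s1 l l))) (s0 (s2 l (s1 l (s0 l l))) (s2 (s1 l l) (s1 (s0 l l) (s0 l l)))))
    (Bx.mk 281475186425856 8388608 281475127705600 16777216 281475010265088 33554432 281474976710656 0) = true := by
  decide +kernel

end SN

end Vale.Agent.Lib.P154
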