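import Vale.Agent.Lib.P154.SN.Prog

/-! Generated certificates. -/

namespace Vale.Agent.Lib.P154

namespace SN

open Tr in
theorem tc190 : chk TKXm gsL (s1 (s1 (s1 (s1 (s0 l (s1 (s0 l (s1 (s0 (s1 (s0 l (s1 (s0 l (d 1)) (d 0))) (s0 l (d 0))) (d 0)) (s0 (d 0) (d 0)))) (s0 l (d 0)))) (s0 l (s1 (s0 l (d 0)) (s0 l (d 0))))) (s1 (s0 l (s1 (s0 (d 0) (d 0)) (s0 (d 0) (d 0)))) (s0 l (s1 (d 0) (d 0))))) (s1 (s1 (s0 l (s1 (d 0) (s0 (d 0) (d 0)))) (s0 l (s1 (s0 (d 0) (d 0)) (s0 (d 0) (d 0))))) (s1 (s0 l (s1 (s0 (d 0) (d 0)) (s0 (d 0) (d 0)))) (s0 l (s1 (s0 (d 0) (d 0)) (s0 (d 0) (d 0))))))) (s1 (s1 (s1 (s0 (s1 l (s0 l (d 0))) (s1 (s0 (d 0) (d 0)) (s0 (d 0) (d 0)))) (s0 (s1 (s0 l (d 0)) (s0 l (d 0))) (s1 (s0 (d 0) (d 0)) (s0 (d 0) (d 0))))) (s1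 (s0 (s1 (s0 l (d 0)) (s0 l (d 0))) (s1 (s0 (d 0) (d 0)) (s0 (d 0) (s1 (d 0) (d 0))))) (s0 (s1 (s0 l (d 0)) (s0 l (d 0))) (s1 (s0 (d 0) (s1 (d 0) (s0 (d 0) (d 0)))) (s0 (d 0) (s1 (s0 (d 0) (d 0)) (s0 (d 0) (d 0)))))))) (s1 (s1 (s0 (s1 (s0 l (d 0)) (s0 l (d 0))) (s1 (s0 (d 0) (s1 (s0 (d 0) (d 0)) (s0 (d 0) (d 0)))) (s0 (s1 (d 0) (s0 (d 0) (d 0))) (s1 (s0 (d 0) (d 0)) (s0 (d 0) (d 0)))))) (s0 (s1 (s0 l (d 0)) (s0 l (d 0))) (s1 (s0 (s1 (s0 (d 0) (d 0)) (s0 (d 0) (d 0))) (s1 (s0 (d 0) (d 0)) (s0 (d 0) (d 0)))) (s0 (s1 (s0 (d 0) (d 0)) (s0 (d 0) (d 0))) (s1 (s0 (d 0) (d 0)) (s0 (d 0) (d 0))))))) (s1 (s0 (s1 (s0 l (d 0)) (s0 l (d 0))) (s1 (s0 (s1 (s0 (d 0) (d 0)) (s0 (d 0) (d 0))) (s1 (s0 (d 0) (d 0)) (s0 (d 0) (d 0)))) (s0 (s1 (s0 (d 0) (d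 0)) (s0 (d 0) (d 0))) (s1 (s0 (d 0) (d 0)) (s0 (d 0) (d 0)))))) (s0 (s1 (s0 l (d 0)) (s0 l (d 0))) (s1 (s0 (s1 (s0 (d 0) (d 0)) (s0 (d 0) (d 0))) (s1 (s0 (d 0) (d 0)) (s0 (d 0) (d 0)))) (s0 (s1 (s0 (d 0) (d 0)) (s0 (d 0) (d 0))) (s1 (s0 (d 0) (d 0)) (s0 (d 0) (d 0))))))))))
    (Bx.mk 281474999779328 23068672 281475312254976 201326592 281474976710656 0 281474976710656 0) = true := by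
  decide +kernel

end SN

end Vale.Agent.Lib.P154
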