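import Vale.Agent.Lib.P154.SN.Prog

/-! Generated certificates. -/

namespace Vale.Agent.Lib.P154

namespace SN

open Tr in
theorem tc228 : chk TKC12 [] (s1 (s0 (s1 (s0 l (s1 l l)) (s0 (s1 l (s0 l l)) (s1 l l))) (s1 (s0 (s1 l l) (s1 l l)) (s0 (s1 l l) (s1 l l)))) (s0 (s1 (s0 (s1 (s0 (s1 l (s0 (s1 l (s0 l l)) l)) (s1 l l)) (s0 (s1 (s0 (s1 (s0 (s1 l l) l) (s0 (s1 l l) l)) l) (s0 (s1 l l) l)) (s1 l l))) (s1 (s0 l l) (s0 l l))) (s0 (s1 (s0 (s1 l l) l) l) (s1 l l))) (s1 (s0 (s1 l l) (s1 l l)) l)))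
    (Bx.mk 281474981527552 4816896 281475211001856 5832704 281474976710656 0 281474976710656 0) = true := by
  decide +kernel

open Tr in
theorem tc229 : chk TKC12 [] (s1 (s0 (s1 (s0 (s1 l l) (s1 (s0 l l) l)) (s0 (s1 l l) (s1 l l))) (s1 (s0 (s1 (s0 l (s1 l l)) l) (s1 (s0 (s1 l l) l) l)) (s0 l l))) (s0 (s1 (s0 l l) l) (s1 l l)))
    (Bx.mk 281474991161344 4816896 281475211001856 5832704 281474976710656 0 281474976710656 0) = true := by
  decide +kernel

open Tr in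
theorem tc230 : chk TKC12 [] (s0 (s1 (s0 (s1 (s0 (s1 (s0 l l) l) (s1 l l)) l) (s1 (s0 l l) l)) (s0 l l)) (s1 (s0 (s1 l l) l) l))
    (Bx.mk 281475005612032 9633792 281475211001856 5832704 281474976710656 0 281474976710656 0) = true := by
  decide +kernel

open Tr in
theorem tc231 : chk TKC12 [] (s0 (s0 (s1 (s0 l l) l) (s1 l l)) (s0 l l))
    (Bx.mk 281475034513408 19267584 281475211001856 5832704 281474976710656 0 281474976710656 0) = true := by
  decide +kernel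

end SN

end Vale.Agent.Lib.P154
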