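import Vale.Agent.Lib.P154.SN.Prog

/-! Generated certificates. -/

namespace Vale.Agent.Lib.P154

namespace SN

open Tr in
theorem tc49 : chk TK5c [] (s1 (s0 (s0 (s0 l (s2 l l)) (s0 (s2 l l) (s2 l (s1 l l)))) (s0 (s0 (s2 l (s1 l l)) (s2 l (s0 (s1 l l) (s1 l l)))) (s0 (s2 l (s1 (s2 l l) (s1 l l))) (s2 l (s1 (s1 l l) (s0 l l)))))) (s0 (s0 (s0 l (s2 l l)) (s0 (s0 l (s2 l l)) (s2 l (s0 l l)))) (s0 (s0 (s2 l (s0 (s1 l l) (s1 l l))) (s2 l (s0 (s1 l l) (s1 l l)))) (s0 (s0 (s2 l (s1 l l)) (s2 l (s1 l l))) (s0 (s2 l (s1 l l)) (s2 l (s1 l l)))))))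
    (Bx.mk 281475001876480 8388608 281475324837888 12582912 281475075706880 10629120 281474976710656 0) = true := by
  decide +kernel

open Tr in
theorem tc50 : chk TK5c [] (s0 (s0 (s0 l l) (s0 (s1 l l) (s0 l l))) (s1 (s2 (s0 (s0 l (s1 l l)) (s0 (s1 l l) (s1 l l))) (s0 (s0 (s1 l l) (s1 l l)) (s0 (s0 l l) (s0 l l)))) (s2 (s0 (s0 l (s1 l l)) (s0 (s1 l l) (s1 l l))) (s0 (s0 (s1 l l) (s0 l l)) (s0 (s0 l l) (s0 l l))))))
    (Bx.mk 281474993487872 16777216 281475350003712 12582912 281475054448640 10629120 281474976710656 0) = true := by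
  decide +kernel

open Tr in
theorem tc51 : chk TK5c [] (s0 (s0 l l) (s0 (s1 l l) (s0 (s1 l l) (s1 l (s2 l l)))))
    (Bx.mk 281474985099264 8388608 281475350003712 12582912 281475075706880 10629120 281474976710656 0) = true := by
  decide +kernel

open Tr in
theorem tc52 : chk TK5c [] (s2 (s0 (s0 (s0 l l) (s0 l l)) (s0 (s0 l (s1 l l)) (s0 (s1 l l) (s1 l l)))) (s0 (s0 (s0 l (s1 l l)) (s0 (s0 l l) (s0 (s1 l l) (s1 l l)))) (s0 (s0 (s0 (s1 l l) (s1 l l)) (s0 (s1 l l) (s1 l l))) (s0 (s0 (s1 l l) (s1 l l)) (s0 (s1 l l) (s1 l l))))))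
    (Bx.mk 281475001876480 8388608 281475343712256 6291456 281475075706880 10629120 281474976710656 0) = true := by
  decide +kernel

open Tr in
theorem tc53 : chk TK5c [] (s2 (s0 (s0 (s0 l l) (s0 l (s1 l l))) (s0 (s0 (s1 l l) (s1 l l)) (s0 (s1 l l) (s1 l l)))) (s0 (s0 (s0 (s1 l l) (s1 l l)) (s0 (s0 (s1 l l) (s1 l l)) (s0 (s1 l l) (s1 l l)))) (s0 (s0 (s0 (s1 l l) (s1 l (s2 l l))) (s0 (s1 l (s2 l l)) (s2 l (s1 l l)))) (s0 (s0 (s2 l (s1 l l)) (s2 l (s1 l l))) (s0 (s2 l (s1 l l)) (s2 l (s1 l l)))))))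
    (Bx.mk 281475001876480 8388608 281475356295168 6291456 281475075706880 10629120 281474976710656 0) = true := by
  decide +kernel

open Tr in
theorem tc54 : chk TK5c [] (s0 (s0 (s0 l l) (s0 (s1 l l) (s0 l (s1 l l)))) (s1 (s2 (s0 (s0 (s1 l l) (s1 l l)) (s0 (s1 l l) (s1 l l))) (s0 (s0 (s0 l l) (s0 l l)) (s0 (s0 l l) (s0 l l)))) (s2 (s0 (s0 (s1 l l) (s1 l l)) (s0 (s1 l l) (s1 l l))) (s0 (s0 (s0 l l) (s0 l l)) (s0 (s0 l l) (s0 l l))))))
    (Bx.mk 281474993487872 16777216 281475375169536 12582912 281475054448640 10629120 281474976710656 0) = true := by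
  decide +kernel

end SN

end Vale.Agent.Lib.P154
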